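import Vale.Agent.P189.Lower
import Vale.Agent.P189.Upper
import Vale.Agent.P189.Bern

open MeasureTheory Vale.Agent.P189

/-- There is a finitely generated (countable) group with two essentially free p.m.p. actions on
standard probability spaces whose costs differ. -/
theorem Vale.Agent.Results.P189.NoFixedPrice.result :
    ∃ (Γ : Type) (_ : Group Γ) (_ : Countable Γ) (_ : Group.FG Γ)
      (X : Type) (_ : MeasurableSpace X) (_ : StandardBorelSpace X)
      (μ : Measure X) (_ : IsProbabilityMeasure μ) (_ : MulAction Γ X)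
      (Y : Type) (_ : MeasurableSpace Y) (_ : StandardBorelSpace Y)
      (ν : Measure Y) (_ : IsProbabilityMeasure ν) (_ : MulAction Γ Y),
      IsPMP Γ μ ∧ EssFree Γ μ ∧ IsPMP Γ ν ∧ EssFree Γ ν ∧ actionCost Γ μ ≠ actionCost Γ ν := by
  obtain ⟨X, _, _, μ, _, _, _, _, C, hC, hfree, hexp⟩ := bern io io_injective
  have hp : IsPMP Gam μ := fun g => measurePreserving_smul g μ
  have hf : EssFree Gam μ := fun g hg => by
    rw [Set.eq_empty_of_forall_notMem (s := {x : X | g • x = x}) fun x hx => hg (hfree g x hx),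
      measure_empty]
  have hη : (0 : ℝ) < 1 / (2 * (48 * C + 6)) := by positivity
  obtain ⟨Y, _, _, ν, _, _, hp', hf', hc⟩ := upper μ hp hf
    (ENNReal.ofReal (1 / (2 * (48 * C + 6)) / 2)) (ENNReal.ofReal_pos.2 (half_pos hη))
  refine ⟨Gam, inferInstance, inferInstance, gam_fg, X, _, inferInstance, μ, inferInstance, _,
    Y, _, inferInstance, ν, inferInstance, _, hp, hf, hp', hf', ne_of_gt ?_⟩
  refine lt_of_le_of_lt hc (lt_of_lt_of_le ?_ (lower hfree hC hexp))
  exact ENNReal.add_lt_add_left ENNReal.one_ne_top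
    ((ENNReal.ofReal_lt_ofReal_iff hη).2 (half_lt_self hη))
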